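import Vale.Agent.P246.R2.H429.Defs

/-!
The stable range of an algebra which is finite over a noetherian ring of finite dimension in its
centre (basic elements, Bass, Eisenbud and Evans).
-/

namespace Vale.Agent.P246.H70

open Submodule

variable {A M : Type*} [CommRing A] [AddCommGroup M] [Module A M]

/-- `M / J` is generated by `k` elements near `p`. -/
def Gen (J : Submodule A M) (p : Ideal A) (k : ℕ) : Prop :=
  ∃ f : A, f ∉ p ∧ ∃ s : Finset M, s.card ≤ k ∧ ∀ x : M, f • x ∈ span A (s : Set M) ⊔ J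

/-- `x` is zero in the fibre of `M / J` at `p`. -/
def Zer (J : Submodule A M) (x : M) (p : Ideal A) : Prop :=
  ∃ f : A, f ∉ p ∧ f • x ∈ p • (⊤ : Submodule A M) ⊔ J

lemma Gen.mono {J J' : Submodule A M} {p : Ideal A} {k : ℕ} (h : Gen J p k) (hJ : J ≤ J') :
    Gen J' p k := by
  obtain ⟨f, hf, s, hs, H⟩ := h
  exact ⟨f, hf, s, hs, fun x => sup_le_sup_left hJ _ (H x)⟩

lemma Gen.small {J : Submodule A M} {p q : Ideal A} {k : ℕ} (h : Gen J p k) (hq : q ≤ p) :
    Gen J q k := by
  obtain ⟨f, hf, s, hs, H⟩ := h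
  exact ⟨f, fun h => hf (hq h), s, hs, H⟩

lemma Gen.le {J : Submodule A M} {p : Ideal A} {k l : ℕ} (h : Gen J p k) (hl : k ≤ l) :
    Gen J p l := by
  obtain ⟨f, hf, s, hs, H⟩ := h
  exact ⟨f, hf, s, hs.trans hl, H⟩

lemma Zer.mono {J J' : Submodule A M} {p : Ideal A} {x : M} (h : Zer J x p) (hJ : J ≤ J') :
    Zer J' x p := by
  obtain ⟨f, hf, H⟩ := h
  exact ⟨f, hf, sup_le_sup_left hJ _ H⟩

lemma gen_zero {J : Submodule A M} {p : Ideal A} (y : M) (h : Gen J p 0) : Zer J y p := by
  obtain ⟨f, hf, s, hs, H⟩ := h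
  have : s = ∅ := by simpa using hs
  subst this
  refine ⟨f, hf, ?_⟩
  have := H y
  simp only [Finset.coe_empty, span_empty, bot_sup_eq] at this
  exact mem_sup_right this

/-- (L1) -/
lemma gen_drop {J : Submodule A M} {p : Ideal A} [hp : p.IsPrime] {y : M} {k : ℕ}
    (hZ : ¬ Zer J y p) (hG : Gen J p (k + 1)) : Gen (J ⊔ span A {y}) p k := by
  classical
  obtain ⟨f, hf, s, hs, H⟩ := hG
  obtain ⟨u, hu, j, hj, huj⟩ := mem_sup.1 (H y)
  obtain ⟨c, -, hc⟩ := mem_span_finset.1 hu
  by_cases hall : ∀ i ∈ s, c i ∈ p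
  · refine absurd ⟨f, hf, ?_⟩ hZ
    rw [← huj, ← hc]
    exact add_mem (mem_sup_left (sum_mem fun i hi => smul_mem_smul (hall i hi) mem_top))
      (mem_sup_right hj)
  push Not at hall
  obtain ⟨i, hi, hci⟩ := hall
  refine ⟨c i * f, fun h => (hp.mem_or_mem h).elim hci hf, s.erase i, ?_, ?_⟩
  · rw [Finset.card_erase_of_mem hi]; omega
  -- `c i • i` is in the span
  have key : c i • i ∈ span A ((s.erase i : Finset M) : Set M) ⊔ (J ⊔ span A {y}) := by
    have h1 : c i • i = f • y - (∑ a ∈ s.erase i, c a • a) - j := by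
      rw [← huj, ← hc, ← Finset.add_sum_erase s _ hi]; abel
    rw [h1]
    refine sub_mem (sub_mem ?_ ?_) ?_
    · exact mem_sup_right (mem_sup_right (smul_mem _ _ (mem_span_singleton_self y)))
    · exact mem_sup_left (sum_mem fun a ha => smul_mem _ _ (subset_span ha))
    · exact mem_sup_right (mem_sup_left hj)
  have key2 : ∀ z ∈ span A (s : Set M),
      c i • z ∈ span A ((s.erase i : Finset M) : Set M) ⊔ (J ⊔ span A {y}) := by
    intro z hz
    induction hz using span_induction with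
    | mem z hz =>
      by_cases h : z = i
      · subst h; exact key
      · exact mem_sup_left (smul_mem _ _ (subset_span (Finset.mem_coe.2 (Finset.mem_erase.2 ⟨h, hz⟩))))
    | zero => rw [smul_zero]; exact zero_mem _
    | add z w _ _ hz hw => rw [smul_add]; exact add_mem hz hw
    | smul r z _ hz => rw [smul_comm]; exact smul_mem _ _ hz
  intro x
  obtain ⟨u', hu', j', hj', e⟩ := mem_sup.1 (H x)
  rw [mul_smul, ← e, smul_add]
  exact add_mem (key2 u' hu') (mem_sup_right (mem_sup_left (smul_mem _ _ hj')))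

/-- (L2) -/
lemma gen_lift {J : Submodule A M} {q : Ideal A} [hq : q.IsPrime] {a : M} {k : ℕ}
    (hZ : Zer J a q) (hG : Gen (J ⊔ span A {a}) q k) : Gen J q k := by
  obtain ⟨f, hf, hfa⟩ := hZ
  obtain ⟨g, hg, s, hs, H⟩ := hG
  set N : Submodule A M := span A (s : Set M) ⊔ J with hN
  have H' : ∀ x, ∃ n ∈ N, ∃ e : A, g • x = n + e • a := by
    intro x
    obtain ⟨u, hu, w, hw, e⟩ := mem_sup.1 (H x)
    obtain ⟨j, hj, z, hz, e'⟩ := mem_sup.1 hw
    obtain ⟨r, rfl⟩ := mem_span_singleton.1 hz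
    exact ⟨u + j, add_mem (mem_sup_left hu) (mem_sup_right hj), r, by rw [← e, ← e']; abel⟩
  -- `g • (q • ⊤) ≤ N + q a`
  have hq1 : ∀ z ∈ q • (⊤ : Submodule A M), ∃ n ∈ N, ∃ c ∈ q, g • z = n + c • a := by
    intro z hz
    refine smul_induction_on hz ?_ ?_
    · intro r hr x _
      obtain ⟨n, hn, e, he⟩ := H' x
      exact ⟨r • n, smul_mem _ _ hn, r * e, q.mul_mem_right _ hr, by
        rw [smul_comm, he, smul_add, mul_smul]⟩
    · rintro x y ⟨n, hn, c, hc, e⟩ ⟨n', hn', c', hc', e'⟩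
      exact ⟨n + n', add_mem hn hn', c + c', add_mem hc hc', by
        rw [smul_add, e, e', add_smul]; abel⟩
  obtain ⟨z, hz, j, hj, e⟩ := mem_sup.1 hfa
  obtain ⟨n, hn, c, hc, e'⟩ := hq1 z hz
  have h1 : (g * f - c) • a ∈ N := by
    have : (g * f - c) • a = n + g • j := by
      rw [sub_smul, mul_smul, ← e, smul_add, e']; abel
    rw [this]
    exact add_mem hn (smul_mem _ _ (mem_sup_right hj))
  have h2 : g * f - c ∉ q := by
    intro h
    have : g * f ∈ q := by simpa using add_mem h hc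
    exact (hq.mem_or_mem this).elim hg hf
  refine ⟨(g * f - c) * g, fun h => (hq.mem_or_mem h).elim h2 hg, s, hs, ?_⟩
  intro x
  obtain ⟨n', hn', r, e''⟩ := H' x
  rw [mul_smul, e'', smul_add, smul_comm _ r a]
  exact add_mem (smul_mem _ _ hn') (smul_mem _ _ h1)

/-- Choice of `t`. -/
lemma avoid (J : Submodule A M) (a y : M) (C : Finset (Ideal A)) :
    (∀ p ∈ C, p.IsPrime ∧ ¬ Zer J a p) → ∃ t : A, ∀ p ∈ C, ¬ Zer J (y + t • a) p := by
  classical
  induction' hn : C.card with n ih generalizing C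
  · intro _
    exact ⟨0, fun p hp => by simp [Finset.card_eq_zero.1 hn] at hp⟩
  intro hC
  have hne : C.Nonempty := Finset.card_pos.1 (by omega)
  obtain ⟨p, hpC, hmin⟩ := C.exists_minimal hne
  obtain ⟨t, ht⟩ := ih (C.erase p) (by rw [Finset.card_erase_of_mem hpC]; omega)
    (fun q hq => hC q (Finset.mem_of_mem_erase hq))
  have := (hC p hpC).1
  by_cases hZ : Zer J (y + t • a) p
  swap
  · refine ⟨t, fun q hq => ?_⟩
    by_cases h : q = p
    · subst h; exact hZ
    · exact ht q (Finset.mem_erase.2 ⟨h, hq⟩)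
  -- an element of all the others which is not in `p`
  have hu : ∃ u : A, u ∉ p ∧ ∀ q ∈ C.erase p, u ∈ q := by
    by_contra hcon
    push Not at hcon
    have h1 : (C.erase p).inf id ≤ p := by
      intro u hu
      by_contra hup
      obtain ⟨q, hq, huq⟩ := hcon u hup
      exact huq ((Finset.inf_le hq : (C.erase p).inf id ≤ id q) hu)
    obtain ⟨q, hq, hqp⟩ := (Ideal.IsPrime.inf_le' this).1 h1
    have hq' := Finset.mem_erase.1 hq
    exact hq'.1 (le_antisymm hqp (hmin hq'.2 hqp))
  obtain ⟨u, hup, huq⟩ := hu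
  refine ⟨t + u, fun q hq => ?_⟩
  by_cases h : q = p
  · subst h
    intro hZ2
    obtain ⟨f, hf, H⟩ := hZ
    obtain ⟨g, hg, H2⟩ := hZ2
    refine (hC q hpC).2 ⟨f * g * u, ?_, ?_⟩
    · intro h
      exact (this.mem_or_mem h).elim (fun h => (this.mem_or_mem h).elim hf hg) hup
    · have : (f * g * u) • a = f • (g • (y + (t + u) • a)) - g • (f • (y + t • a)) := by
        simp only [smul_add, add_smul, smul_smul]
        rw [show g * (f * t) = f * (g * t) by ring, show g * f = f * g by ring,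
          show f * g * u = f * (g * u) by ring]
        abel
      rw [this]
      exact sub_mem (smul_mem _ _ H2) (smul_mem _ _ H)
  · have hq' := Finset.mem_erase.2 ⟨h, hq⟩
    rintro ⟨f, hf, H⟩
    refine ht q hq' ⟨f, hf, ?_⟩
    have : f • (y + t • a) = f • (y + (t + u) • a) - u • (f • a) := by
      simp only [smul_add, add_smul, smul_smul]
      rw [show u * f = f * u by ring]
      abel
    rw [this]
    exact sub_mem H (mem_sup_left (smul_mem_smul (huq q hq') mem_top))

/-- The invariant. -/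
def Inv (h : Ideal A → ℕ) (m : ℕ) (a : M) (i : ℕ) (J : Submodule A M) : Prop :=
  ∀ p : Ideal A, p.IsPrime → ¬ Zer J a p → ∃ k, Gen J p k ∧ k + i ≤ m * (1 + h p)

/-- The ideal generated by the elements `f` such that `f M` is in the span of `k` elements. -/
def bad (J : Submodule A M) (k : ℕ) : Ideal A :=
  Ideal.span {f | ∃ s : Finset M, s.card ≤ k ∧ ∀ x : M, f • x ∈ span A (s : Set M) ⊔ J}

lemma bad_le {J : Submodule A M} {k : ℕ} {p : Ideal A} : bad J k ≤ p ↔ ¬ Gen J p k := by
  constructor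
  · rintro h ⟨f, hf, s, hs, H⟩
    exact hf (h (subset_span ⟨s, hs, H⟩))
  · intro h
    refine span_le.2 ?_
    rintro f ⟨s, hs, H⟩
    by_contra hf
    exact h ⟨f, hf, s, hs, H⟩

lemma crit_finite [IsNoetherianRing A] {h : Ideal A → ℕ}
    (hh : ∀ q p : Ideal A, q.IsPrime → p.IsPrime → q < p → h q < h p)
    {m : ℕ} (hm : 1 ≤ m) (hgen : ∀ (J : Submodule A M) (p : Ideal A), p.IsPrime → Gen J p m)
    {a : M} {i : ℕ} {J : Submodule A M} (hInv : Inv h m a i J) :
    {p : Ideal A | p.IsPrime ∧ ¬ Zer J a p ∧ ∀ k, Gen J p k → m * (1 + h p) ≤ k + i}.Finite := by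
  classical
  refine Set.Finite.subset (Set.Finite.biUnion (Set.finite_Iio m)
    (fun k _ => (bad J k).finite_minimalPrimes_of_isNoetherianRing A)) ?_
  rintro p ⟨hp, hZ, hcrit⟩
  -- the least number of generators
  have hex : ∃ k, Gen J p k := ⟨m, hgen J p hp⟩
  set k := Nat.find hex with hk
  have hkG : Gen J p k := Nat.find_spec hex
  have hkmin : ∀ l < k, ¬ Gen J p l := fun l hl => Nat.find_min hex hl
  have hkm : k ≤ m := Nat.find_le (hgen J p hp)
  obtain ⟨k', hk'⟩ : ∃ k', k = k' + 1 := by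
    rcases Nat.eq_zero_or_pos k with h0 | h0
    · rw [h0] at hkG; exact absurd (gen_zero a hkG) hZ
    · exact ⟨k - 1, by omega⟩
  rw [Set.mem_iUnion₂]
  refine ⟨k', by simp only [Set.mem_Iio]; omega, ?_⟩
  refine ⟨⟨hp, bad_le.2 (hkmin k' (by omega))⟩, ?_⟩
  rintro q ⟨hq, hbq⟩ hqp
  by_contra hpq
  have hlt : q < p := lt_of_le_of_ne hqp (fun e => hpq (e ▸ le_rfl))
  have hqk : ¬ Gen J q k' := bad_le.1 hbq
  have hZq : Zer J a q := by
    by_contra hZq
    obtain ⟨l, hl, hli⟩ := hInv q hq hZq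
    have h1 : k' < l := by
      by_contra h
      exact hqk (hl.le (by omega))
    have h2 := hcrit k hkG
    have h3 := hh q p hq hp hlt
    have h4 : m * (1 + h q) ≤ m * h p := Nat.mul_le_mul_left m (by omega)
    have h5 : m * (1 + h p) = m + m * h p := by ring
    omega
  rw [hk'] at hkG
  exact hqk (gen_lift hZq ((gen_drop hZ hkG).small hqp))

lemma step [IsNoetherianRing A] {h : Ideal A → ℕ}
    (hh : ∀ q p : Ideal A, q.IsPrime → p.IsPrime → q < p → h q < h p)
    {m : ℕ} (hm : 1 ≤ m) (hgen : ∀ (J : Submodule A M) (p : Ideal A), p.IsPrime → Gen J p m)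
    {a : M} {i : ℕ} {J : Submodule A M} (hInv : Inv h m a i J) (y : M) :
    ∃ t : A, Inv h m a (i + 1) (J ⊔ span A {y + t • a}) := by
  classical
  have hfin := crit_finite hh hm hgen hInv
  obtain ⟨t, ht⟩ := avoid J a y hfin.toFinset (fun p hp => by
    have := hfin.mem_toFinset.1 hp
    exact ⟨this.1, this.2.1⟩)
  refine ⟨t, fun p hp hZ => ?_⟩
  have hZ' : ¬ Zer J a p := fun h => hZ (h.mono le_sup_left)
  by_cases hc : ∀ k, Gen J p k → m * (1 + h p) ≤ k + i
  · have hZy := ht p (hfin.mem_toFinset.2 ⟨hp, hZ', hc⟩)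
    obtain ⟨k, hk, hki⟩ := hInv p hp hZ'
    obtain ⟨k', rfl⟩ : ∃ k', k = k' + 1 := by
      rcases Nat.eq_zero_or_pos k with h0 | h0
      · subst h0; exact absurd (gen_zero a hk) hZ'
      · exact ⟨k - 1, by omega⟩
    exact ⟨k', gen_drop hZy hk, by omega⟩
  · push Not at hc
    obtain ⟨k, hk, hki⟩ := hc
    exact ⟨k, hk.mono le_sup_left, by omega⟩

lemma steps [IsNoetherianRing A] {h : Ideal A → ℕ}
    (hh : ∀ q p : Ideal A, q.IsPrime → p.IsPrime → q < p → h q < h p)
    {m : ℕ} (hm : 1 ≤ m) (hgen : ∀ (J : Submodule A M) (p : Ideal A), p.IsPrime → Gen J p m)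
    {a : M} (l : ℕ) : ∀ {i : ℕ} {J : Submodule A M}, Inv h m a i J → ∀ y : Fin l → M,
    ∃ t : Fin l → A, Inv h m a (i + l) (J ⊔ span A (Set.range fun j => y j + t j • a)) := by
  induction l with
  | zero =>
    intro i J hJ y
    exact ⟨fun _ => 0, by simpa using hJ⟩
  | succ l ih =>
    intro i J hJ y
    obtain ⟨t0, ht0⟩ := step hh hm hgen hJ (y 0)
    obtain ⟨t, ht⟩ := ih ht0 (fun j => y j.succ)
    refine ⟨Fin.cons t0 t, ?_⟩
    have e : J ⊔ span A (Set.range fun j : Fin (l + 1) =>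
        y j + (Fin.cons t0 t : Fin (l + 1) → A) j • a) =
        J ⊔ span A {y 0 + t0 • a} ⊔ span A (Set.range fun j => y j.succ + t j • a) := by
      rw [sup_assoc, ← span_union]
      congr 2
      ext x
      simp only [Set.mem_range, Set.mem_union, Set.mem_singleton_iff, Fin.exists_fin_succ,
        Fin.cons_zero, Fin.cons_succ]
      tauto
    rw [e, show i + (l + 1) = i + 1 + l by ring]
    exact ht

/-- The basic element theorem: `m (d + 1)` elements suffice. -/
lemma basic [IsNoetherianRing A] [Module.Finite A M] {d : ℕ}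
    (hd : ∀ p : Ideal A, p.IsPrime → p.height ≤ d) (m : ℕ) (hm : 1 ≤ m) (s : Finset M)
    (hs : s.card ≤ m) (hs' : span A (s : Set M) = ⊤) (a : M) (y : Fin (m * (d + 1)) → M) :
    ∃ t : Fin (m * (d + 1)) → A, ∀ p : Ideal A, p.IsPrime →
      Zer (span A (Set.range fun j => y j + t j • a)) a p := by
  have hfin : ∀ p : Ideal A, p.IsPrime → p.height ≠ ⊤ := fun p hp h => by
    have := hd p hp
    rw [h] at this
    exact absurd this (by simp)
  have hcoe : ∀ p : Ideal A, p.IsPrime → ((p.height.toNat : ℕ) : ℕ∞) = p.height := fun p hp =>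
    ENat.natCast_toNat (hfin p hp)
  have hh : ∀ q p : Ideal A, q.IsPrime → p.IsPrime → q < p → q.height.toNat < p.height.toNat := by
    intro q p hq hp hlt
    have h1 := Ideal.height_add_one_le_of_lt_of_isPrime hlt
    rw [← hcoe q hq, ← hcoe p hp] at h1
    exact_mod_cast h1
  have hgen : ∀ (J : Submodule A M) (p : Ideal A), p.IsPrime → Gen J p m := fun J p hp =>
    ⟨1, fun h => hp.ne_top ((Ideal.eq_top_iff_one p).2 h), s, hs, fun x => by
      rw [hs']; exact mem_sup_left mem_top⟩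
  have h0 : Inv (fun p : Ideal A => p.height.toNat) m a 0 (⊥ : Submodule A M) := fun p hp _ =>
    ⟨m, hgen _ p hp, by nlinarith [Nat.zero_le (p.height.toNat)]⟩
  obtain ⟨t, ht⟩ := steps hh hm hgen (m * (d + 1)) h0 y
  refine ⟨t, fun p hp => ?_⟩
  by_contra hZ
  rw [bot_sup_eq] at ht
  obtain ⟨k, hk, hki⟩ := ht p hp hZ
  have h1 : p.height.toNat ≤ d := by
    have := hd p hp
    rw [← hcoe p hp] at this
    exact_mod_cast this
  have h2 : m * (1 + p.height.toNat) ≤ m * (d + 1) := Nat.mul_le_mul_left m (by omega)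
  have h3 : k = 0 := by
    have h4 : k + (0 + m * (d + 1)) ≤ m * (1 + p.height.toNat) := hki
    omega
  subst h3
  exact hZ (gen_zero a hk)

theorem bass : Vale.Agent.P246.H429.SpecBass := by
  intro A R _ _ _ _ _ d hd
  classical
  obtain ⟨s, hs⟩ := (Module.finite_def.1 ‹Module.Finite A R› : (⊤ : Submodule A R).FG)
  set m := s.card + 1 with hm
  refine ⟨m * (d + 1), by nlinarith [Nat.zero_le s.card, Nat.zero_le d], fun y a hbc => ?_⟩
  obtain ⟨b, c, hbc⟩ := hbc
  obtain ⟨t, ht⟩ := basic hd m (by omega) s (by omega) hs a y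
  refine ⟨fun i => algebraMap A R (t i), ?_⟩
  -- the right ideal generated by the new row
  let L : (Fin (m * (d + 1)) → R) →ₗ[A] R :=
    { toFun := fun v => ∑ i, (y i + a * algebraMap A R (t i)) * v i
      map_add' := fun v w => by simp [mul_add, Finset.sum_add_distrib]
      map_smul' := fun r v => by simp [Finset.smul_sum] }
  have hL : ∀ v, L v = ∑ i, (y i + a * algebraMap A R (t i)) * v i := fun v => rfl
  have hLr : ∀ z ∈ LinearMap.range L, ∀ r : R, z * r ∈ LinearMap.range L := by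
    rintro _ ⟨v, rfl⟩ r
    exact ⟨fun i => v i * r, by simp only [hL, Finset.sum_mul, mul_assoc]⟩
  have hspan : span A (Set.range fun j => y j + t j • a) ≤ LinearMap.range L := by
    refine span_le.2 ?_
    rintro _ ⟨j, rfl⟩
    refine ⟨Pi.single j 1, ?_⟩
    rw [hL, Finset.sum_eq_single j]
    · simp [Algebra.smul_def, Algebra.commutes]
    · intro i _ hij
      simp [Pi.single_eq_of_ne hij]
    · intro h; exact absurd (Finset.mem_univ j) h
  have hone : ∀ x : R, ∃ u ∈ LinearMap.range L, ∃ w : R, x = u + a * w := by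
    intro x
    refine ⟨L (fun i => b i * x), ⟨_, rfl⟩, (c - ∑ i, algebraMap A R (t i) * b i) * x, ?_⟩
    rw [hL]
    have : x = (∑ i, y i * b i + a * c) * x := by rw [hbc, one_mul]
    conv_lhs => rw [this]
    simp only [add_mul, sub_mul, mul_sub, Finset.sum_add_distrib, Finset.sum_mul, Finset.mul_sum,
      mul_assoc]
    abel
  have hpr : ∀ (p : Ideal A), ∀ z ∈ p • (⊤ : Submodule A R), ∀ r : R,
      z * r ∈ p • (⊤ : Submodule A R) := by
    intro p z hz r
    refine smul_induction_on hz ?_ ?_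
    · intro c hc x _
      rw [smul_mul_assoc]
      exact smul_mem_smul hc mem_top
    · intro x x' hx hx'
      rw [add_mul]
      exact add_mem hx hx'
  have htop : LinearMap.range L = ⊤ := by
    let I : Ideal A :=
      { carrier := {f | ∀ x : R, f • x ∈ LinearMap.range L}
        add_mem' := fun {f g} hf hg x => by rw [add_smul]; exact add_mem (hf x) (hg x)
        zero_mem' := fun x => by rw [zero_smul]; exact zero_mem _
        smul_mem' := fun r f hf x => by rw [smul_eq_mul, mul_smul]; exact smul_mem _ _ (hf x) }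
    have hI : ∀ f, f ∈ I ↔ ∀ x : R, f • x ∈ LinearMap.range L := fun f => Iff.rfl
    have hI1 : I = ⊤ := by
      by_contra hne
      obtain ⟨p, hp, hIp⟩ := Ideal.exists_le_maximal I hne
      obtain ⟨f, hf, H⟩ := ht p hp.isPrime
      -- `R = range L + p R`
      have h1 : (⊤ : Submodule A R) ≤ LinearMap.range L ⊔ p • (⊤ : Submodule A R) := by
        intro x _
        obtain ⟨g, e, he, hge⟩ : ∃ g e, e ∈ p ∧ g * f + e = 1 := by
          obtain ⟨g, hg⟩ := hp.exists_inv hf
          exact ⟨g, _, hg.choose_spec.1, hg.choose_spec.2⟩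
        have hfx : f • x ∈ LinearMap.range L ⊔ p • (⊤ : Submodule A R) := by
          obtain ⟨u, hu, w, rfl⟩ := hone x
          rw [smul_add, ← smul_mul_assoc]
          refine add_mem (mem_sup_left (smul_mem _ _ hu)) ?_
          obtain ⟨z, hz, z', hz', ez⟩ := mem_sup.1 H
          have : (f • a) * w = z * w + z' * w := by rw [← ez, add_mul]
          rw [this]
          exact add_mem (mem_sup_right (hpr p z hz w)) (mem_sup_left (hLr z' (hspan hz') w))
        have : x = g • (f • x) + e • x := by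
          rw [smul_smul, ← add_smul, hge, one_smul]
        rw [this]
        exact add_mem (smul_mem _ _ hfx) (mem_sup_right (smul_mem_smul he mem_top))
      obtain ⟨r, hr, hrL⟩ := exists_sub_one_mem_and_smul_le_of_fg_of_le_sup
        (Module.finite_def.1 ‹Module.Finite A R›) le_rfl h1
      have h2 : r ∈ p := hIp ((hI r).2 fun x => hrL (smul_mem_pointwise_smul x r ⊤ mem_top))
      exact hp.ne_top ((Ideal.eq_top_iff_one p).2 (by simpa using sub_mem h2 hr))
    rw [eq_top_iff]
    intro x _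
    have := (hI 1).1 (hI1 ▸ mem_top) x
    rwa [one_smul] at this
  obtain ⟨v, hv⟩ : (1 : R) ∈ LinearMap.range L := htop ▸ mem_top
  exact ⟨v, by rw [← hL, hv]⟩

end Vale.Agent.P246.H70
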